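import Mathlib

namespace Vale.Agent.Results.P072.CatalyticBlocks

open Finset Set
open scoped NNReal Topology

/-- Complexes: vectors of natural numbers indexed by the d species. -/
abbrev Cx (d : ℕ) := Fin d → ℕ

theorem first_up {α : Type*} (Rel : α → α → Prop) (φ : α → ℝ) {a b : α}
    (h : Relation.ReflTransGen Rel a b) (hab : φ a < φ b) :
    ∃ z z', Rel z z' ∧ Relation.ReflTransGen Rel a z ∧ φ z ≤ φ a ∧ φ z < φ z' := by
  induction h using Relation.ReflTransGen.head_induction_on with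
  | refl => exact absurd hab (lt_irrefl _)
  | head hac hcb ih =>
    rename_i a c
    by_cases hlt : φ a < φ c
    · exact ⟨a, c, hac, Relation.ReflTransGen.refl, le_refl _, hlt⟩
    · push Not at hlt
      obtain ⟨z, z', hzz, hcz, hzc, hlt'⟩ := ih (lt_of_le_of_lt hlt hab)
      exact ⟨z, z', hzz, Relation.ReflTransGen.head hac hcz, le_trans hzc hlt, hlt'⟩

theorem key {d : ℕ} (R : Finset (Cx d × Cx d)) (hR : R.Nonempty)
    (hwr : ∀ r ∈ R, Relation.ReflTransGen (fun a b => (a, b) ∈ R) r.2 r.1)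
    (φ : Cx d → ℝ) (hφ : ∀ r ∈ R, φ r.1 ≠ φ r.2) (ε : ℝ) (hε : 0 < ε) :
    ∃ ρ₁ : ℝ, 0 < ρ₁ ∧ ρ₁ ≤ 1 ∧ ∃ rp ∈ R, ∃ γ : ℝ, 0 < γ ∧
      ∀ (κ : Cx d × Cx d → ℝ), (∀ r ∈ R, ε ≤ κ r ∧ κ r ≤ ε⁻¹) →
      ∀ (M : Cx d → ℝ) (ρ : ℝ), (∀ y, 0 < M y) → 0 < ρ → ρ ≤ ρ₁ →
        (∀ y z, Relation.ReflTransGen (fun a b => (a, b) ∈ R) y z →
          M z = M y * ρ ^ (φ z - φ y)) →
        γ * M rp.1 ≤ ∑ r ∈ R, κ r * M r.1 * (φ r.2 - φ r.1) := by
  classical
  obtain ⟨rmin, hrmin, hmin⟩ := Finset.exists_min_image R (fun r => |φ r.2 - φ r.1|) hR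
  set e₀ : ℝ := |φ rmin.2 - φ rmin.1| with he₀
  have he₀pos : 0 < e₀ := abs_pos.2 (sub_ne_zero.2 (hφ rmin hrmin).symm)
  set C₀ : ℝ := ∑ r ∈ R, |φ r.2 - φ r.1| with hC₀
  have hC₀le : ∀ r ∈ R, |φ r.2 - φ r.1| ≤ C₀ := fun r hr =>
    Finset.single_le_sum (f := fun r => |φ r.2 - φ r.1|) (fun i _ => abs_nonneg _) hr
  have hC₀pos : 0 < C₀ := lt_of_lt_of_le he₀pos (hC₀le rmin hrmin)
  set N : ℝ := (R.card : ℝ) with hN
  have hNpos : 0 < N := by
    have : 0 < R.card := Finset.card_pos.2 hR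
    rw [hN]
    exact_mod_cast this
  have hdom : ∀ r ∈ R, φ r.2 < φ r.1 → ∃ r' ∈ R, φ r'.1 < φ r'.2 ∧
      Relation.ReflTransGen (fun a b => (a, b) ∈ R) r.1 r'.1 ∧ φ r'.1 - φ r.1 ≤ -e₀ := by
    intro r hr hneg
    obtain ⟨z, z', hzz, hpath, hz, hlt⟩ := first_up (fun a b => (a, b) ∈ R) φ (hwr r hr) hneg
    refine ⟨(z, z'), hzz, hlt,
      Relation.ReflTransGen.head (show (r.1, r.2) ∈ R from hr) hpath, ?_⟩
    have h1 : e₀ ≤ |φ r.2 - φ r.1| := hmin r hr
    rw [abs_of_neg (by linarith)] at h1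
    show φ z - φ r.1 ≤ -e₀
    linarith
  have hpos : ∃ rp ∈ R, φ rp.1 < φ rp.2 := by
    obtain ⟨r0, hr0⟩ := hR
    rcases lt_or_gt_of_ne (hφ r0 hr0) with h | h
    · exact ⟨r0, hr0, h⟩
    · obtain ⟨r', hr', hlt, _, _⟩ := hdom r0 hr0 h
      exact ⟨r', hr', hlt⟩
  obtain ⟨rp, hrp, hrppos⟩ := hpos
  set B : ℝ := max (2 * N * C₀ / (ε ^ 2 * e₀)) 1 with hB
  have hB1 : 1 ≤ B := le_max_right _ _
  have hBpos : 0 < B := lt_of_lt_of_le one_pos hB1
  have hinv : 0 ≤ 1 / e₀ := by positivity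
  refine ⟨B ^ (-(1 / e₀)), Real.rpow_pos_of_pos hBpos _, ?_, rp, hrp, ε * e₀ / 2,
    by positivity, ?_⟩
  · exact Real.rpow_le_one_of_one_le_of_nonpos hB1 (by linarith)
  intro κ hκ M ρ hM hρ hρle hrel
  have hρ1 : ρ ≤ 1 :=
    le_trans hρle (Real.rpow_le_one_of_one_le_of_nonpos hB1 (by linarith))
  have hρB : B ≤ ρ ^ (-e₀) := by
    have h1 : (B ^ (-(1 / e₀))) ^ (-e₀) ≤ ρ ^ (-e₀) :=
      Real.rpow_le_rpow_of_nonpos hρ hρle (by linarith)
    have h2 : (B ^ (-(1 / e₀))) ^ (-e₀) = B := by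
      rw [← Real.rpow_mul hBpos.le]
      have : -(1 / e₀) * -e₀ = 1 := by field_simp
      rw [this, Real.rpow_one]
    rwa [h2] at h1
  set T : Cx d × Cx d → ℝ := fun r => κ r * M r.1 * |φ r.2 - φ r.1| with hT
  have hTnn : ∀ r ∈ R, 0 ≤ T r := fun r hr =>
    mul_nonneg (mul_nonneg (le_trans hε.le (hκ r hr).1) (hM _).le) (abs_nonneg _)
  set Sp : ℝ := ∑ r ∈ R.filter (fun r => φ r.1 < φ r.2), T r with hSp
  have hSple : ∀ r ∈ R, φ r.1 < φ r.2 → T r ≤ Sp := by
    intro r hr hlt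
    exact Finset.single_le_sum (f := T)
      (fun i hi => hTnn i (Finset.mem_filter.1 hi).1) (Finset.mem_filter.2 ⟨hr, hlt⟩)
  have hnegle : ∀ r ∈ R, φ r.2 < φ r.1 → T r ≤ Sp / (2 * N) := by
    intro r hr hneg
    obtain ⟨r', hr', hlt, hpath, hexp⟩ := hdom r hr hneg
    have hMr : M r'.1 = M r.1 * ρ ^ (φ r'.1 - φ r.1) := hrel _ _ hpath
    have h1 : ρ ^ (-e₀) ≤ ρ ^ (φ r'.1 - φ r.1) :=
      Real.rpow_le_rpow_of_exponent_ge hρ hρ1 hexp
    have h2 : e₀ ≤ |φ r'.2 - φ r'.1| := hmin r' hr'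
    have hκ' := (hκ r' hr').1
    have hκr := (hκ r hr).2
    have hMpos := hM r.1
    -- lower bound for T r'
    have h3 : ε * (M r.1 * B) * e₀ ≤ T r' := by
      show ε * (M r.1 * B) * e₀ ≤ κ r' * M r'.1 * |φ r'.2 - φ r'.1|
      rw [hMr]
      have hb : M r.1 * B ≤ M r.1 * ρ ^ (φ r'.1 - φ r.1) :=
        mul_le_mul_of_nonneg_left (le_trans hρB h1) hMpos.le
      have hb0 : 0 ≤ M r.1 * B := by positivity
      calc ε * (M r.1 * B) * e₀ ≤ κ r' * (M r.1 * ρ ^ (φ r'.1 - φ r.1)) * e₀ := by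
            apply mul_le_mul_of_nonneg_right _ he₀pos.le
            exact mul_le_mul hκ' hb hb0 (le_trans hε.le hκ')
        _ ≤ κ r' * (M r.1 * ρ ^ (φ r'.1 - φ r.1)) * |φ r'.2 - φ r'.1| := by
            apply mul_le_mul_of_nonneg_left h2
            exact mul_nonneg (le_trans hε.le hκ') (le_trans hb0 hb)
    have h4 : T r ≤ ε⁻¹ * M r.1 * C₀ := by
      show κ r * M r.1 * |φ r.2 - φ r.1| ≤ ε⁻¹ * M r.1 * C₀
      have hκ0 : 0 ≤ κ r := le_trans hε.le (hκ r hr).1
      exact mul_le_mul (mul_le_mul_of_nonneg_right hκr hMpos.le) (hC₀le r hr)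
        (abs_nonneg _) (by positivity)
    have h5 : 2 * N * C₀ / (ε ^ 2 * e₀) ≤ B := le_max_left _ _
    have h6 : ε⁻¹ * M r.1 * C₀ * (2 * N) ≤ ε * (M r.1 * B) * e₀ := by
      have h7 : 2 * N * C₀ ≤ B * (ε ^ 2 * e₀) := by
        rwa [div_le_iff₀ (by positivity)] at h5
      have h8 : ε⁻¹ * M r.1 * C₀ * (2 * N) = M r.1 * ε⁻¹ * (2 * N * C₀) := by ring
      have h9 : ε * (M r.1 * B) * e₀ = M r.1 * ε⁻¹ * (B * (ε ^ 2 * e₀)) := by
        field_simp
      rw [h8, h9]
      exact mul_le_mul_of_nonneg_left h7 (by positivity)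
    rw [le_div_iff₀ (by positivity)]
    calc T r * (2 * N) ≤ ε⁻¹ * M r.1 * C₀ * (2 * N) :=
          mul_le_mul_of_nonneg_right h4 (by positivity)
      _ ≤ ε * (M r.1 * B) * e₀ := h6
      _ ≤ T r' := h3
      _ ≤ Sp := hSple r' hr' hlt
  have hSpnn : 0 ≤ Sp := Finset.sum_nonneg (fun i hi => hTnn i (Finset.mem_filter.1 hi).1)
  -- split the sum
  have hsplit : ∑ r ∈ R, κ r * M r.1 * (φ r.2 - φ r.1)
      = Sp - ∑ r ∈ R.filter (fun r => ¬ φ r.1 < φ r.2), T r := by
    rw [← Finset.sum_filter_add_sum_filter_not R (fun r => φ r.1 < φ r.2)]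
    have e1 : ∑ r ∈ R.filter (fun r => φ r.1 < φ r.2), κ r * M r.1 * (φ r.2 - φ r.1) = Sp := by
      apply Finset.sum_congr rfl
      intro r hr
      have := (Finset.mem_filter.1 hr).2
      show κ r * M r.1 * (φ r.2 - φ r.1) = κ r * M r.1 * |φ r.2 - φ r.1|
      rw [abs_of_pos (by linarith)]
    have e2 : ∑ r ∈ R.filter (fun r => ¬ φ r.1 < φ r.2), κ r * M r.1 * (φ r.2 - φ r.1)
        = - ∑ r ∈ R.filter (fun r => ¬ φ r.1 < φ r.2), T r := by
      rw [← Finset.sum_neg_distrib]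
      apply Finset.sum_congr rfl
      intro r hr
      obtain ⟨hrR, hnot⟩ := Finset.mem_filter.1 hr
      have hlt : φ r.2 < φ r.1 := lt_of_le_of_ne (not_lt.1 hnot) (hφ r hrR).symm
      show κ r * M r.1 * (φ r.2 - φ r.1) = -(κ r * M r.1 * |φ r.2 - φ r.1|)
      rw [abs_of_neg (by linarith)]
      ring
    rw [e1, e2]
    ring
  have hnegsum : ∑ r ∈ R.filter (fun r => ¬ φ r.1 < φ r.2), T r ≤ Sp / 2 := by
    have h1 : ∑ r ∈ R.filter (fun r => ¬ φ r.1 < φ r.2), T r
        ≤ (R.filter (fun r => ¬ φ r.1 < φ r.2)).card • (Sp / (2 * N)) := by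
      apply Finset.sum_le_card_nsmul
      intro r hr
      obtain ⟨hrR, hnot⟩ := Finset.mem_filter.1 hr
      exact hnegle r hrR (lt_of_le_of_ne (not_lt.1 hnot) (hφ r hrR).symm)
    have h2 : ((R.filter (fun r => ¬ φ r.1 < φ r.2)).card : ℝ) ≤ N := by
      have := Finset.card_filter_le R (fun r => ¬ φ r.1 < φ r.2)
      rw [hN]
      exact_mod_cast this
    rw [nsmul_eq_mul] at h1
    have h3 : ((R.filter (fun r => ¬ φ r.1 < φ r.2)).card : ℝ) * (Sp / (2 * N))
        ≤ N * (Sp / (2 * N)) :=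
      mul_le_mul_of_nonneg_right h2 (by positivity)
    have h4 : N * (Sp / (2 * N)) = Sp / 2 := by field_simp
    linarith
  have hrpT : ε * M rp.1 * e₀ ≤ T rp := by
    show ε * M rp.1 * e₀ ≤ κ rp * M rp.1 * |φ rp.2 - φ rp.1|
    have h2 : e₀ ≤ |φ rp.2 - φ rp.1| := hmin rp hrp
    have hκ' := (hκ rp hrp).1
    exact mul_le_mul (mul_le_mul_of_nonneg_right hκ' (hM _).le) h2 he₀pos.le
      (mul_nonneg (le_trans hε.le hκ') (hM _).le)
  have hrpS := hSple rp hrp hrppos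
  rw [hsplit]
  have : ε * e₀ / 2 * M rp.1 = (ε * M rp.1 * e₀) / 2 := by ring
  rw [this]
  linarith

def mono {d : ℕ} (x : Fin d → ℝ) (y : Cx d) : ℝ := ∏ j, x j ^ y j

theorem mono_pos {d : ℕ} (x : Fin d → ℝ) (hx : ∀ j, 0 < x j) (y : Cx d) : 0 < mono x y :=
  Finset.prod_pos (fun j _ => pow_pos (hx j) _)

theorem mono_rel {d : ℕ} (x v : Fin d → ℝ) (hx : ∀ j, 0 < x j) (y z : Cx d) (e : ℝ)
    (h : ∀ j, (z j : ℝ) - y j = e * v j) :
    mono x z = mono x y * (∏ j, x j ^ v j) ^ e := by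
  unfold mono
  rw [← Real.finsetProd_rpow _ _ (fun j _ => (Real.rpow_pos_of_pos (hx j) _).le),
    ← Finset.prod_mul_distrib]
  apply Finset.prod_congr rfl
  intro j _
  have h1 : (z j : ℝ) = y j + v j * e := by linarith [h j]
  rw [← Real.rpow_natCast (x j) (z j), h1, Real.rpow_add (hx j), Real.rpow_natCast,
    Real.rpow_mul (hx j).le]

theorem path_vec {d : ℕ} (R : Finset (Cx d × Cx d)) (φ : Cx d → ℝ) (v : Fin d → ℝ)
    (hR : ∀ r ∈ R, ∀ j, (r.2 j : ℝ) - r.1 j = (φ r.2 - φ r.1) * v j) {y z : Cx d}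
    (h : Relation.ReflTransGen (fun a b => (a, b) ∈ R) y z) :
    ∀ j, (z j : ℝ) - y j = (φ z - φ y) * v j := by
  induction h with
  | refl => intro j; simp
  | tail hab hbc ih =>
    intro j
    have h1 := hR _ hbc j
    have h2 := ih j
    simp only at h1
    linarith

theorem scalar_dyn (s Gs : ℝ → ℝ)
    (hs : ∀ t, 0 ≤ t → HasDerivWithinAt s (Gs t) (Set.Ici 0) t) (T₀ : ℝ) (hT₀ : 0 ≤ T₀)
    (a a₀ η : ℝ) (hη : 0 < η) (haa : a ≤ a₀)
    (hG : ∀ t, T₀ ≤ t → a ≤ s t → s t ≤ a₀ → η ≤ Gs t) (h0 : a ≤ s T₀) :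
    (∀ t, T₀ ≤ t → a ≤ s t) ∧ ∃ T, T₀ ≤ T ∧ ∀ t, T ≤ t → a₀ ≤ s t := by
  have hcont : ContinuousOn s (Set.Ici 0) := fun t ht => (hs t ht).continuousWithinAt
  have hright : ∀ t, 0 ≤ t → HasDerivWithinAt s (Gs t) (Set.Ici t) t :=
    fun t ht => (hs t ht).mono (Set.Ici_subset_Ici.2 ht)
  have barrier : ∀ T₁, T₀ ≤ T₁ → ∀ α, a ≤ α → α ≤ a₀ → α ≤ s T₁ → ∀ t, T₁ ≤ t → α ≤ s t := by
    intro T₁ hT₁ α hα1 hα2 hαs t ht
    have hT₁0 : 0 ≤ T₁ := le_trans hT₀ hT₁
    have hsub : Set.Icc T₁ t ⊆ Set.Ici 0 := fun x hx => le_trans hT₁0 hx.1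
    have key := image_le_of_deriv_right_lt_deriv_boundary' (f := fun t => - s t)
      (f' := fun t => - Gs t) (a := T₁) (b := t) (B := fun _ => -α) (B' := fun _ => 0)
      ((hcont.mono hsub).neg)
      (fun x hx => (hright x (le_trans hT₁0 hx.1)).neg)
      (by simpa using hαs) continuousOn_const
      (fun x _ => hasDerivWithinAt_const x (Set.Ici x) (-α))
      (by
        intro x hx hxe
        have hsx : s x = α := by simpa using hxe
        have := hG x (le_trans hT₁ hx.1) (by rw [hsx]; exact hα1) (by rw [hsx]; exact hα2)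
        show - Gs x < 0
        linarith)
    have := key (Set.right_mem_Icc.2 ht)
    simpa using this
  have part1 : ∀ t, T₀ ≤ t → a ≤ s t := fun t ht => barrier T₀ le_rfl a le_rfl haa h0 t ht
  refine ⟨part1, ?_⟩
  have hex : ∃ T₁, T₀ ≤ T₁ ∧ a₀ ≤ s T₁ := by
    by_contra hcon
    push Not at hcon
    have h00 := hcon T₀ le_rfl
    set T : ℝ := T₀ + (a₀ - s T₀) / η + 1 with hT
    have hTpos : T₀ ≤ T := by
      have : 0 ≤ (a₀ - s T₀) / η := div_nonneg (by linarith) hη.le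
      linarith
    have hsub : Set.Icc T₀ T ⊆ Set.Ici 0 := fun x hx => le_trans hT₀ hx.1
    have key := image_le_of_deriv_right_le_deriv_boundary (f := fun t => - s t)
      (f' := fun t => - Gs t) (a := T₀) (b := T) (B := fun t => - s T₀ - η * (t - T₀))
      (B' := fun _ => - η)
      ((hcont.mono hsub).neg)
      (fun x hx => (hright x (le_trans hT₀ hx.1)).neg)
      (by simp) (by fun_prop)
      (fun x _ => by
        have h1 : HasDerivWithinAt (fun t : ℝ => - s T₀ - η * (t - T₀)) (0 - η * (1 - 0))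
            (Set.Ici x) x :=
          (hasDerivWithinAt_const x (Set.Ici x) (- s T₀)).sub
            (((hasDerivWithinAt_id x (Set.Ici x)).sub
              (hasDerivWithinAt_const x (Set.Ici x) T₀)).const_mul η)
        simpa using h1)
      (by
        intro x hx
        have := hG x hx.1 (part1 x hx.1) (hcon x hx.1).le
        show - Gs x ≤ - η
        linarith)
    have h1 : - s T ≤ - s T₀ - η * (T - T₀) := key (Set.right_mem_Icc.2 hTpos)
    have h2 : η * (T - T₀) = a₀ - s T₀ + η := by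
      rw [hT]; field_simp; ring
    have h3 := hcon T hTpos
    linarith
  obtain ⟨T₁, hT₁, hT₁s⟩ := hex
  exact ⟨T₁, hT₁, fun t ht => barrier T₁ hT₁ a₀ haa le_rfl hT₁s t ht⟩

theorem pos_between {d : ℕ} (c v : Fin d → ℝ) (a b s : ℝ)
    (ha : ∀ j, 0 < c j + a * v j) (hb : ∀ j, 0 < c j + b * v j) (h1 : a ≤ s) (h2 : s ≤ b) :
    ∀ j, 0 < c j + s * v j := by
  intro j
  rcases le_or_gt 0 (v j) with hv | hv
  · have := mul_le_mul_of_nonneg_right h1 hv
    linarith [ha j]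
  · have := mul_le_mul_of_nonpos_right h2 hv.le
    linarith [hb j]

theorem rho_mono {d : ℕ} (c v : Fin d → ℝ) (s s' : ℝ) (hs : ∀ j, 0 < c j + s * v j)
    (hs' : ∀ j, 0 < c j + s' * v j) (h : s ≤ s') :
    ∏ j, (c j + s * v j) ^ v j ≤ ∏ j, (c j + s' * v j) ^ v j := by
  apply Finset.prod_le_prod
  · intro j _
    exact (Real.rpow_pos_of_pos (hs j) _).le
  · intro j _
    rcases le_or_gt 0 (v j) with hv | hv
    · apply Real.rpow_le_rpow (hs j).le _ hv
      have := mul_le_mul_of_nonneg_right h hv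
      linarith
    · apply Real.rpow_le_rpow_of_nonpos (hs' j) _ hv.le
      have := mul_le_mul_of_nonpos_right h hv.le
      linarith

theorem lower_end {d : ℕ} (c v : Fin d → ℝ) (hc : ∀ j, 0 < c j) (hv : v ≠ 0) (ρ₁ : ℝ)
    (hρ₁ : 0 < ρ₁) :
    ∃ s : ℝ, s ≤ 0 ∧ (∀ j, 0 < c j + s * v j) ∧ ∏ j, (c j + s * v j) ^ v j ≤ ρ₁ := by
  classical
  -- factor bound for nonpositive s
  have hfac : ∀ s : ℝ, s ≤ 0 → (∀ j, 0 < c j + s * v j) → ∀ j,
      (c j + s * v j) ^ v j ≤ c j ^ v j := by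
    intro s hs hpos j
    rcases le_or_gt 0 (v j) with hvj | hvj
    · apply Real.rpow_le_rpow (hpos j).le _ hvj
      have := mul_nonpos_of_nonpos_of_nonneg hs hvj
      linarith
    · apply Real.rpow_le_rpow_of_nonpos (hc j) _ hvj.le
      have := mul_nonneg_of_nonpos_of_nonpos hs hvj.le
      linarith
  -- reduction to one coordinate
  have hred : ∀ (i : Fin d) (s : ℝ), s ≤ 0 → (∀ j, 0 < c j + s * v j) →
      (c i + s * v i) ^ v i ≤ ρ₁ / ∏ j ∈ (Finset.univ.erase i), c j ^ v j →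
      ∏ j, (c j + s * v j) ^ v j ≤ ρ₁ := by
    intro i s hs hpos hle
    have hC : 0 < ∏ j ∈ (Finset.univ.erase i), c j ^ v j :=
      Finset.prod_pos (fun j _ => Real.rpow_pos_of_pos (hc j) _)
    rw [← Finset.mul_prod_erase Finset.univ (fun j => (c j + s * v j) ^ v j) (Finset.mem_univ i)]
    have h1 : ∏ j ∈ (Finset.univ.erase i), (c j + s * v j) ^ v j
        ≤ ∏ j ∈ (Finset.univ.erase i), c j ^ v j :=
      Finset.prod_le_prod (fun j _ => (Real.rpow_pos_of_pos (hpos j) _).le)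
        (fun j _ => hfac s hs hpos j)
    have h2 : 0 ≤ (c i + s * v i) ^ v i := (Real.rpow_pos_of_pos (hpos i) _).le
    calc (c i + s * v i) ^ v i * ∏ j ∈ (Finset.univ.erase i), (c j + s * v j) ^ v j
        ≤ (ρ₁ / ∏ j ∈ (Finset.univ.erase i), c j ^ v j)
            * ∏ j ∈ (Finset.univ.erase i), c j ^ v j :=
          mul_le_mul hle h1 (Finset.prod_nonneg
            (fun j _ => (Real.rpow_pos_of_pos (hpos j) _).le)) (by positivity)
      _ = ρ₁ := by field_simp
  by_cases hex : ∃ j, 0 < v j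
  · -- bounded end
    have hne : (Finset.univ.filter (fun j => 0 < v j)).Nonempty := by
      obtain ⟨j, hj⟩ := hex
      exact ⟨j, Finset.mem_filter.2 ⟨Finset.mem_univ j, hj⟩⟩
    obtain ⟨i, hi, himin⟩ := Finset.exists_min_image _ (fun j => c j / v j) hne
    have hvi : 0 < v i := (Finset.mem_filter.1 hi).2
    set C : ℝ := ∏ j ∈ (Finset.univ.erase i), c j ^ v j with hCdef
    have hC : 0 < C := Finset.prod_pos (fun j _ => Real.rpow_pos_of_pos (hc j) _)
    set q : ℝ := (ρ₁ / C) ^ (1 / v i) with hq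
    have hqpos : 0 < q := Real.rpow_pos_of_pos (div_pos hρ₁ hC) _
    set b : ℝ := min (c i) q with hb
    have hbpos : 0 < b := lt_min (hc i) hqpos
    have hbc : b ≤ c i := min_le_left _ _
    have hs0 : (b - c i) / v i ≤ 0 := div_nonpos_of_nonpos_of_nonneg (by linarith) hvi.le
    have hci : c i + (b - c i) / v i * v i = b := by field_simp; ring
    have hpos : ∀ j, 0 < c j + (b - c i) / v i * v j := by
      intro j
      rcases le_or_gt (v j) 0 with hvj | hvj
      · have := mul_nonneg_of_nonpos_of_nonpos hs0 hvj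
        linarith [hc j]
      · have h1 : c i / v i ≤ c j / v j :=
          himin j (Finset.mem_filter.2 ⟨Finset.mem_univ j, hvj⟩)
        have h2 : c j + (b - c i) / v i * v j = v j * (c j / v j - c i / v i) + b * v j / v i := by
          field_simp; ring
        rw [h2]
        have h3 : 0 ≤ v j * (c j / v j - c i / v i) := mul_nonneg hvj.le (by linarith)
        have h4 : 0 < b * v j / v i := by positivity
        linarith
    refine ⟨(b - c i) / v i, hs0, hpos, hred i _ hs0 hpos ?_⟩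
    rw [hci]
    calc b ^ v i ≤ q ^ v i := Real.rpow_le_rpow hbpos.le (min_le_right _ _) hvi.le
      _ = ρ₁ / C := by
          rw [hq, ← Real.rpow_mul (div_pos hρ₁ hC).le]
          have : 1 / v i * v i = 1 := by field_simp
          rw [this, Real.rpow_one]
  · -- unbounded end
    push Not at hex
    obtain ⟨i, hi⟩ : ∃ i, v i ≠ 0 := by
      by_contra hcon
      push Not at hcon
      exact hv (funext hcon)
    have hvi : v i < 0 := lt_of_le_of_ne (hex i) hi
    set C : ℝ := ∏ j ∈ (Finset.univ.erase i), c j ^ v j with hCdef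
    have hC : 0 < C := Finset.prod_pos (fun j _ => Real.rpow_pos_of_pos (hc j) _)
    set q : ℝ := (ρ₁ / C) ^ (1 / v i) with hq
    have hqpos : 0 < q := Real.rpow_pos_of_pos (div_pos hρ₁ hC) _
    set b : ℝ := max (c i) q with hb
    have hbc : c i ≤ b := le_max_left _ _
    have hbpos : 0 < b := lt_of_lt_of_le (hc i) hbc
    have hs0 : (b - c i) / v i ≤ 0 := div_nonpos_of_nonneg_of_nonpos (by linarith) hvi.le
    have hci : c i + (b - c i) / v i * v i = b := by field_simp; ring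
    have hpos : ∀ j, 0 < c j + (b - c i) / v i * v j := by
      intro j
      have := mul_nonneg_of_nonpos_of_nonpos hs0 (hex j)
      linarith [hc j]
    refine ⟨(b - c i) / v i, hs0, hpos, hred i _ hs0 hpos ?_⟩
    rw [hci]
    calc b ^ v i ≤ q ^ v i := Real.rpow_le_rpow_of_nonpos hqpos (le_max_right _ _) hvi.le
      _ = ρ₁ / C := by
          rw [hq, ← Real.rpow_mul (div_pos hρ₁ hC).le]
          have : 1 / v i * v i = 1 := by field_simp
          rw [this, Real.rpow_one]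

/-- The reaction vector of a reaction (source, target): target minus source, as a real vector. -/
def rvec {d : ℕ} (r : Cx d × Cx d) : Fin d → ℝ := fun i => (r.2 i : ℝ) - (r.1 i : ℝ)

/-- The stoichiometric subspace: the real span of all reaction vectors. -/
def stoich {d : ℕ} (R : Finset (Cx d × Cx d)) : Submodule ℝ (Fin d → ℝ) :=
  Submodule.span ℝ (rvec '' (R : Set (Cx d × Cx d)))

/-- The mass-action right-hand side for the reaction set R with rate constants kappa. -/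
def massAction {d : ℕ} (R : Finset (Cx d × Cx d)) (κ : Cx d × Cx d → ℝ) (x : Fin d → ℝ) :
    Fin d → ℝ :=
  ∑ r ∈ R, (κ r * ∏ j, x j ^ r.1 j) • rvec r

/-- Weak reversibility: for every reaction there is a directed path of reactions from its
target back to its source. -/
def WeaklyReversible {d : ℕ} (R : Finset (Cx d × Cx d)) : Prop :=
  ∀ r ∈ R, Relation.ReflTransGen (fun a b => (a, b) ∈ R) r.2 r.1

/-- The positive stoichiometric class of the point c. -/
def posClass {d : ℕ} (R : Finset (Cx d × Cx d)) (c : Fin d → ℝ) : Set (Fin d → ℝ) :=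
  {x | (∀ i, 0 < x i) ∧ x - c ∈ stoich R}

theorem massAction_mem {d : ℕ} (R : Finset (Cx d × Cx d)) (κ : Cx d × Cx d → ℝ)
    (y : Fin d → ℝ) : massAction R κ y ∈ stoich R := by
  unfold massAction
  exact Submodule.sum_mem _ (fun r hr =>
    Submodule.smul_mem _ _ (Submodule.subset_span ⟨r, hr, rfl⟩))

theorem eventually_gt_of_deriv_pos (f : ℝ → ℝ) (f' x : ℝ)
    (hf : HasDerivWithinAt f f' (Set.Ici x) x) (hpos : 0 < f') :
    ∀ᶠ u in 𝓝[>] x, f x < f u := by
  have h1 : Filter.Tendsto (slope f x) (𝓝[>] x) (𝓝 f') := by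
    have := hasDerivWithinAt_iff_tendsto_slope.1 hf
    rwa [Set.Ici_sdiff_left] at this
  have h2 : ∀ᶠ u in 𝓝[>] x, 0 < slope f x u := h1.eventually (lt_mem_nhds hpos)
  filter_upwards [h2, self_mem_nhdsWithin] with u hu hux
  have hux' : 0 < u - x := sub_pos.2 hux
  rw [slope_def_field] at hu
  have := (div_pos_iff_of_pos_right hux').1 hu
  linarith

theorem joint_inv {ι : Type*} [Finite ι] (s : ι → ℝ → ℝ) (G : ι → ℝ → ℝ) (Tmax : ℝ)
    (hs : ∀ k, ∀ t, 0 ≤ t → t < Tmax → HasDerivWithinAt (s k) (G k t) (Set.Ici 0) t)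
    (a b : ι → ℝ) (h0 : ∀ k, a k ≤ s k 0 ∧ s k 0 ≤ b k)
    (hin : ∀ t, 0 ≤ t → t < Tmax → (∀ k, a k ≤ s k t ∧ s k t ≤ b k) →
      ∀ k, (s k t = a k → 0 < G k t) ∧ (s k t = b k → G k t < 0)) :
    ∀ t, 0 ≤ t → t < Tmax → ∀ k, a k ≤ s k t ∧ s k t ≤ b k := by
  intro T hT0 hTmax
  set S : Set ℝ := {t | ∀ k, a k ≤ s k t ∧ s k t ≤ b k} with hS
  have hcont : ∀ k, ContinuousOn (s k) (Set.Icc 0 T) := fun k t ht =>
    ((hs k t ht.1 (lt_of_le_of_lt ht.2 hTmax)).continuousWithinAt).mono (fun y hy => hy.1)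
  have hclosed : IsClosed (S ∩ Set.Icc 0 T) := by
    have h1 : S ∩ Set.Icc 0 T = Set.Icc 0 T ∩ (fun t => fun k => s k t) ⁻¹' (Set.Icc a b) := by
      ext t
      simp only [hS, Set.mem_inter_iff, Set.mem_ofPred_eq, Set.mem_preimage, Set.mem_Icc,
        Pi.le_def]
      constructor
      · rintro ⟨h, h'⟩
        exact ⟨h', fun k => (h k).1, fun k => (h k).2⟩
      · rintro ⟨h', h1, h2⟩
        exact ⟨fun k => ⟨h1 k, h2 k⟩, h'⟩
    rw [h1]
    exact (continuousOn_pi.2 hcont).preimage_isClosed_of_isClosed isClosed_Icc isClosed_Icc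
  have hsub : Set.Icc 0 T ⊆ S := by
    apply hclosed.Icc_subset_of_forall_mem_nhdsWithin
    · exact h0
    · rintro x ⟨hxS, hx⟩
      have hx0 : 0 ≤ x := hx.1
      have hxT : x < Tmax := lt_trans hx.2 hTmax
      have hall : ∀ k, ∀ᶠ u in 𝓝[>] x, a k ≤ s k u ∧ s k u ≤ b k := by
        intro k
        have hd := (hs k x hx0 hxT).mono (Set.Ici_subset_Ici.2 hx0)
        have hct : Filter.Tendsto (s k) (𝓝[>] x) (𝓝 (s k x)) :=
          (hd.continuousWithinAt).tendsto.mono_left (nhdsWithin_mono x Set.Ioi_subset_Ici_self)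
        obtain ⟨hlo, hhi⟩ := hin x hx0 hxT hxS k
        have h1 : ∀ᶠ u in 𝓝[>] x, a k ≤ s k u := by
          rcases eq_or_lt_of_le (hxS k).1 with h | h
          · have := eventually_gt_of_deriv_pos (s k) (G k x) x hd (hlo h.symm)
            filter_upwards [this] with u hu
            rw [h]
            exact hu.le
          · filter_upwards [hct.eventually (lt_mem_nhds h)] with u hu
            exact hu.le
        have h2 : ∀ᶠ u in 𝓝[>] x, s k u ≤ b k := by
          rcases eq_or_lt_of_le (hxS k).2 with h | h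
          · have := eventually_gt_of_deriv_pos (fun t => - s k t) (- G k x) x hd.neg
              (by have := hhi h; linarith)
            filter_upwards [this] with u hu
            rw [← h]
            linarith
          · filter_upwards [hct.eventually (gt_mem_nhds h)] with u hu
            exact hu.le
        filter_upwards [h1, h2] with u hu1 hu2
        exact ⟨hu1, hu2⟩
      exact Filter.eventually_all.2 hall
  exact hsub ⟨hT0, le_rfl⟩

theorem block_sign {d : ℕ} (R : Finset (Cx d × Cx d)) (hR : R.Nonempty)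
    (hwr : ∀ r ∈ R, Relation.ReflTransGen (fun a b => (a, b) ∈ R) r.2 r.1)
    (v : Fin d → ℝ) (hvne : v ≠ 0) (φ : Cx d → ℝ)
    (hcf : ∀ r ∈ R, ∀ j, (r.2 j : ℝ) - r.1 j = (φ r.2 - φ r.1) * v j)
    (hφne : ∀ r ∈ R, φ r.1 ≠ φ r.2) (ε : ℝ) (hε : 0 < ε) (c : Fin d → ℝ)
    (hc : ∀ j, 0 < c j) :
    ∃ (a₀ b₀ γ₁ γ₂ : ℝ) (y₁ y₂ : Cx d), a₀ ≤ b₀ ∧ (∀ j, 0 < c j + a₀ * v j) ∧
      (∀ j, 0 < c j + b₀ * v j) ∧ 0 < γ₁ ∧ 0 < γ₂ ∧
      ∀ (κ : Cx d × Cx d → ℝ), (∀ r ∈ R, ε ≤ κ r ∧ κ r ≤ ε⁻¹) →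
      ∀ (x : Fin d → ℝ), (∀ j, 0 < x j) → ∀ u : ℝ,
        (∀ j, v j ≠ 0 → x j = c j + u * v j) →
        (u ≤ a₀ → γ₁ * mono x y₁ ≤ ∑ r ∈ R, κ r * mono x r.1 * (φ r.2 - φ r.1)) ∧
        (b₀ ≤ u → ∑ r ∈ R, κ r * mono x r.1 * (φ r.2 - φ r.1) ≤ -(γ₂ * mono x y₂)) := by
  classical
  obtain ⟨ρ₁, hρ₁, -, rp, hrp, γ₁, hγ₁, hlow⟩ := key R hR hwr φ hφne ε hε
  obtain ⟨ρ₂, hρ₂, -, rm, hrm, γ₂, hγ₂, hupp⟩ := key R hR hwr (fun y => - φ y)
    (fun r hr h => hφne r hr (neg_injective h)) ε hε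
  set ρf : ℝ → ℝ := fun s => ∏ j, (c j + s * v j) ^ v j with hρf
  have hρfpos : ∀ s, (∀ j, 0 < c j + s * v j) → 0 < ρf s := fun s hs =>
    Finset.prod_pos (fun j _ => Real.rpow_pos_of_pos (hs j) _)
  obtain ⟨a₀, ha₀0, ha₀pos, ha₀ρ⟩ := lower_end c v hc hvne ρ₁ hρ₁
  obtain ⟨s', hs'0, hs'pos, hs'ρ⟩ := lower_end c (-v) hc (neg_ne_zero.2 hvne) ρ₂ hρ₂
  set b₀ : ℝ := - s' with hb₀
  have hb₀0 : 0 ≤ b₀ := by rw [hb₀]; linarith
  have hb₀pos : ∀ j, 0 < c j + b₀ * v j := by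
    intro j
    have := hs'pos j
    simp only [Pi.neg_apply] at this
    rw [hb₀]
    linarith
  have hb₀ρ : (ρf b₀)⁻¹ ≤ ρ₂ := by
    have h1 : (ρf b₀)⁻¹ = ∏ j, (c j + s' * (-v) j) ^ (-v) j := by
      rw [hρf]
      simp only
      rw [← Finset.prod_inv_distrib]
      apply Finset.prod_congr rfl
      intro j _
      have hb := hb₀pos j
      have e1 : c j + s' * (-v) j = c j + b₀ * v j := by
        simp only [Pi.neg_apply]; rw [hb₀]; ring
      rw [e1]
      simp only [Pi.neg_apply]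
      rw [Real.rpow_neg hb.le]
    rw [h1]
    exact hs'ρ
  refine ⟨a₀, b₀, γ₁, γ₂, rp.1, rm.1, le_trans ha₀0 hb₀0, ha₀pos, hb₀pos, hγ₁, hγ₂, ?_⟩
  intro κ hκ x hx u hxu
  have hupos : ∀ j, 0 < c j + u * v j := by
    intro j
    by_cases hj : v j = 0
    · rw [hj, mul_zero, add_zero]; exact hc j
    · rw [← hxu j hj]; exact hx j
  have hρx : ∏ j, x j ^ v j = ρf u := by
    apply Finset.prod_congr rfl
    intro j _
    by_cases hj : v j = 0
    · rw [hj, Real.rpow_zero, Real.rpow_zero]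
    · rw [hxu j hj]
  have hρxpos : 0 < ∏ j, x j ^ v j :=
    Finset.prod_pos (fun j _ => Real.rpow_pos_of_pos (hx j) _)
  have hrel : ∀ y z, Relation.ReflTransGen (fun a b => (a, b) ∈ R) y z →
      mono x z = mono x y * (∏ j, x j ^ v j) ^ (φ z - φ y) := by
    intro y z hyz
    exact mono_rel x v hx y z (φ z - φ y) (path_vec R φ v hcf hyz)
  constructor
  · intro hua
    have hρ : ∏ j, x j ^ v j ≤ ρ₁ := by
      rw [hρx]
      exact le_trans (rho_mono c v u a₀ hupos ha₀pos hua) ha₀ρ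
    exact hlow κ hκ (mono x) _ (mono_pos x hx) hρxpos hρ hrel
  · intro hub
    have hρ : (∏ j, x j ^ v j)⁻¹ ≤ ρ₂ := by
      rw [hρx]
      have h5 : ρf b₀ ≤ ρf u := rho_mono c v b₀ u hb₀pos hupos hub
      exact le_trans (inv_anti₀ (hρfpos b₀ hb₀pos) h5) hb₀ρ
    have h1 := hupp κ hκ (mono x) (∏ j, x j ^ v j)⁻¹ (mono_pos x hx)
      (inv_pos.2 hρxpos) hρ (by
        intro y z hyz
        rw [hrel y z hyz, Real.inv_rpow hρxpos.le, ← Real.rpow_neg hρxpos.le]
        congr 2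
        ring)
    have h2 : ∑ r ∈ R, κ r * mono x r.1 * (-φ r.2 - -φ r.1)
        = - ∑ r ∈ R, κ r * mono x r.1 * (φ r.2 - φ r.1) := by
      rw [← Finset.sum_neg_distrib]
      apply Finset.sum_congr rfl
      intro r _
      ring
    rw [h2] at h1
    linarith

theorem seg_bounds (c v A B s : ℝ) (h1 : A ≤ s) (h2 : s ≤ B) :
    min (c + A * v) (c + B * v) ≤ c + s * v ∧ c + s * v ≤ max (c + A * v) (c + B * v) := by
  rcases le_or_gt 0 v with hv | hv
  · have e1 := mul_le_mul_of_nonneg_right h1 hv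
    have e2 := mul_le_mul_of_nonneg_right h2 hv
    exact ⟨le_trans (min_le_left _ _) (by linarith), le_trans (by linarith) (le_max_right _ _)⟩
  · have e1 := mul_le_mul_of_nonpos_right h1 hv.le
    have e2 := mul_le_mul_of_nonpos_right h2 hv.le
    exact ⟨le_trans (min_le_right _ _) (by linarith), le_trans (by linarith) (le_max_left _ _)⟩

theorem compact_box {d : ℕ} (R : Finset (Cx d × Cx d)) (c lo hi : Fin d → ℝ)
    (hlo : ∀ j, 0 < lo j) :
    IsCompact {y : Fin d → ℝ | (∀ j, lo j ≤ y j ∧ y j ≤ hi j) ∧ y - c ∈ stoich R} ∧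
    {y : Fin d → ℝ | (∀ j, lo j ≤ y j ∧ y j ≤ hi j) ∧ y - c ∈ stoich R} ⊆ posClass R c := by
  constructor
  · have h1 : {y : Fin d → ℝ | (∀ j, lo j ≤ y j ∧ y j ≤ hi j) ∧ y - c ∈ stoich R}
        = Set.Icc lo hi ∩ {y | y - c ∈ stoich R} := by
      ext y
      simp only [Set.mem_ofPred_eq, Set.mem_inter_iff, Set.mem_Icc, Pi.le_def]
      constructor
      · rintro ⟨h, h'⟩
        exact ⟨⟨fun j => (h j).1, fun j => (h j).2⟩, h'⟩
      · rintro ⟨⟨h1, h2⟩, h'⟩
        exact ⟨fun j => ⟨h1 j, h2 j⟩, h'⟩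
    rw [h1]
    apply isCompact_Icc.inter_right
    have hcl : IsClosed (stoich R : Set (Fin d → ℝ)) :=
      Submodule.closed_of_finiteDimensional _
    exact hcl.preimage (by fun_prop : Continuous fun y : Fin d → ℝ => y - c)
  · rintro y ⟨hy, hy'⟩
    exact ⟨fun j => lt_of_lt_of_le (hlo j) (hy j).1, hy'⟩

theorem level_data (d m : ℕ) (blk : Fin d → Fin m) (R : Finset (Cx d × Cx d))
    (lvl : Cx d × Cx d → Fin m)
    (hne : ∀ r ∈ R, r.1 ≠ r.2)
    (hown : ∀ r ∈ R, ∀ i, blk i ≠ lvl r → r.2 i = r.1 i)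
    (c : Fin d → ℝ) (hc : ∀ i, 0 < c i) (ε : ℝ) (hε : 0 < ε) (k : Fin m)
    (hlev : (R.filter (fun r => lvl r = k)).Nonempty)
    (hwr : WeaklyReversible (R.filter (fun r => lvl r = k)))
    (hdim : Module.finrank ℝ (stoich (R.filter (fun r => lvl r = k))) ≤ 1) :
    ∃ (v : Fin d → ℝ) (i₀ : Fin d) (φ : Cx d → ℝ) (a₀ b₀ γ₁ γ₂ : ℝ) (y₁ y₂ : Cx d),
      v i₀ ≠ 0 ∧ blk i₀ = k ∧ (∀ j, blk j ≠ k → v j = 0) ∧
      (∀ r ∈ R, lvl r = k → ∀ j, (r.2 j : ℝ) - r.1 j = (φ r.2 - φ r.1) * v j) ∧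
      a₀ ≤ b₀ ∧ (∀ j, 0 < c j + a₀ * v j) ∧ (∀ j, 0 < c j + b₀ * v j) ∧ 0 < γ₁ ∧ 0 < γ₂ ∧
      ∀ (κ : Cx d × Cx d → ℝ), (∀ r ∈ R, ε ≤ κ r ∧ κ r ≤ ε⁻¹) →
      ∀ (x : Fin d → ℝ), (∀ j, 0 < x j) → ∀ u : ℝ,
        (∀ j, blk j = k → x j = c j + u * v j) →
        (u ≤ a₀ → γ₁ * mono x y₁ ≤
          ∑ r ∈ R.filter (fun r => lvl r = k), κ r * mono x r.1 * (φ r.2 - φ r.1)) ∧
        (b₀ ≤ u →
          ∑ r ∈ R.filter (fun r => lvl r = k), κ r * mono x r.1 * (φ r.2 - φ r.1)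
            ≤ -(γ₂ * mono x y₂)) := by
  classical
  set Rk : Finset (Cx d × Cx d) := R.filter (fun r => lvl r = k) with hRk
  have hRkR : ∀ r ∈ Rk, r ∈ R ∧ lvl r = k := fun r hr => Finset.mem_filter.1 hr
  obtain ⟨v0, hv0⟩ := finrank_le_one_iff.1 hdim
  set v : Fin d → ℝ := (v0 : Fin d → ℝ) with hvdef
  have hspan : ∀ w ∈ stoich Rk, ∃ a : ℝ, w = a • v := by
    intro w hw
    obtain ⟨a, ha⟩ := hv0 ⟨w, hw⟩
    refine ⟨a, ?_⟩
    have := congrArg Subtype.val ha
    simpa using this.symm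
  have hrv : ∀ r ∈ Rk, rvec r ∈ stoich Rk := fun r hr =>
    Submodule.subset_span ⟨r, hr, rfl⟩
  have hrvne : ∀ r ∈ Rk, rvec r ≠ 0 := by
    intro r hr h0
    apply hne r (hRkR r hr).1
    funext i
    have := congrFun h0 i
    simp only [rvec, Pi.zero_apply] at this
    have h2 : (r.1 i : ℝ) = r.2 i := by linarith
    exact_mod_cast h2
  obtain ⟨r0, hr0⟩ := hlev
  have hvne : v ≠ 0 := by
    intro h0
    obtain ⟨a, ha⟩ := hspan _ (hrv r0 hr0)
    rw [h0, smul_zero] at ha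
    exact hrvne r0 hr0 ha
  obtain ⟨i₀, hi₀⟩ : ∃ i, v i ≠ 0 := by
    by_contra hcon
    push Not at hcon
    exact hvne (funext hcon)
  set φ : Cx d → ℝ := fun y => (y i₀ : ℝ) / v i₀ with hφ
  have hcf : ∀ r ∈ Rk, ∀ j, (r.2 j : ℝ) - r.1 j = (φ r.2 - φ r.1) * v j := by
    intro r hr j
    obtain ⟨a, ha⟩ := hspan _ (hrv r hr)
    have h1 := congrFun ha j
    have h2 := congrFun ha i₀
    simp only [rvec, Pi.smul_apply, smul_eq_mul] at h1 h2
    have h3 : φ r.2 - φ r.1 = a := by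
      show (r.2 i₀ : ℝ) / v i₀ - (r.1 i₀ : ℝ) / v i₀ = a
      field_simp
      linarith
    rw [h3]
    exact h1
  have hφne : ∀ r ∈ Rk, φ r.1 ≠ φ r.2 := by
    intro r hr heq
    apply hrvne r hr
    funext j
    have := hcf r hr j
    rw [heq, sub_self, zero_mul] at this
    simpa [rvec] using this
  have hvzero : ∀ j, blk j ≠ k → v j = 0 := by
    intro j hj
    obtain ⟨a, ha⟩ := hspan _ (hrv r0 hr0)
    have ha0 : a ≠ 0 := by
      rintro rfl
      rw [zero_smul] at ha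
      exact hrvne r0 hr0 ha
    have h1 := congrFun ha j
    have h2 : rvec r0 j = 0 := by
      have := hown r0 (hRkR r0 hr0).1 j (by rw [(hRkR r0 hr0).2]; exact hj)
      simp [rvec, this]
    simp only [Pi.smul_apply, smul_eq_mul] at h1
    rw [h2] at h1
    rcases mul_eq_zero.1 h1.symm with h | h
    · exact absurd h ha0
    · exact h
  have hblk0 : blk i₀ = k := by
    by_contra h
    exact hi₀ (hvzero i₀ h)
  obtain ⟨a₀, b₀, γ₁, γ₂, y₁, y₂, hab, hapos, hbpos, hγ₁, hγ₂, hsign⟩ :=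
    block_sign Rk ⟨r0, hr0⟩ hwr v hvne φ hcf hφne ε hε c hc
  refine ⟨v, i₀, φ, a₀, b₀, γ₁, γ₂, y₁, y₂, hi₀, hblk0, hvzero,
    fun r hr hl j => hcf r (Finset.mem_filter.2 ⟨hr, hl⟩) j, hab, hapos, hbpos, hγ₁, hγ₂, ?_⟩
  intro κ hκ x hx u hxu
  exact hsign κ (fun r hr => hκ r (hRkR r hr).1) x hx u (fun j hj => hxu j (by
    by_contra h
    exact hj (hvzero j h)))

theorem exists_rate_bound {d : ℕ} (R : Finset (Cx d × Cx d)) (κ : Cx d × Cx d → ℝ)
    (hκ : ∀ r ∈ R, 0 < κ r) : ∃ ε : ℝ, 0 < ε ∧ ∀ r ∈ R, ε ≤ κ r ∧ κ r ≤ ε⁻¹ := by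
  rcases R.eq_empty_or_nonempty with hRe | hRne
  · subst hRe
    exact ⟨1, one_pos, fun r hr => absurd hr (Finset.notMem_empty r)⟩
  · obtain ⟨r₁, hr₁, hmin⟩ := Finset.exists_min_image R κ hRne
    obtain ⟨r₂, hr₂, hmax⟩ := Finset.exists_max_image R κ hRne
    have h1 := hκ r₁ hr₁
    have h2 := hκ r₂ hr₂
    refine ⟨min (κ r₁) (κ r₂)⁻¹, lt_min h1 (inv_pos.2 h2), fun r hr => ⟨?_, ?_⟩⟩
    · exact le_trans (min_le_left _ _) (hmin r hr)
    · have h3 : min (κ r₁) (κ r₂)⁻¹ ≤ (κ r₂)⁻¹ := min_le_right _ _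
      have h4 : ((κ r₂)⁻¹)⁻¹ ≤ (min (κ r₁) (κ r₂)⁻¹)⁻¹ :=
        inv_anti₀ (lt_min h1 (inv_pos.2 h2)) h3
      rw [inv_inv] at h4
      exact le_trans (hmax r hr) h4

theorem massAction_lip {d : ℕ} (R : Finset (Cx d × Cx d)) (κ : Cx d × Cx d → ℝ)
    (lo hi : Fin d → ℝ) : ∃ K : ℝ≥0, LipschitzOnWith K (massAction R κ) (Set.Icc lo hi) := by
  have hcd : ContDiff ℝ 1 (massAction R κ) := by
    unfold massAction
    apply ContDiff.sum
    intro r _
    refine ContDiff.smul (f := fun x : Fin d → ℝ => κ r * ∏ j, x j ^ r.1 j)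
      (g := fun _ => rvec r) ?_ contDiff_const
    apply ContDiff.mul contDiff_const
    apply contDiff_prod
    intro j _
    exact (contDiff_apply ℝ ℝ j).pow _
  exact hcd.contDiffOn.exists_lipschitzOnWith one_ne_zero (convex_Icc lo hi) isCompact_Icc

theorem class_invariant_gen {d : ℕ} (R : Finset (Cx d × Cx d)) (κ : ℝ → Cx d × Cx d → ℝ)
    (x z : ℝ → Fin d → ℝ) (Tmax : ℝ)
    (hx : ∀ t, 0 ≤ t → t < Tmax →
      HasDerivWithinAt x (massAction R (κ t) (z t)) (Set.Ici 0) t)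
    (c : Fin d → ℝ) (h0 : x 0 - c ∈ stoich R) :
    ∀ t, 0 ≤ t → t < Tmax → x t - c ∈ stoich R := by
  intro t ht htT
  have hcl : IsClosed (stoich R : Set (Fin d → ℝ)) := Submodule.closed_of_finiteDimensional _
  have hd : ∀ u, 0 ≤ u → u < Tmax →
      HasDerivWithinAt (fun u => (stoich R).mkQL (x u)) 0 (Set.Ici 0) u := by
    intro u hu huT
    have h1 := ((stoich R).mkQL.hasFDerivAt (x := x u)).comp_hasDerivWithinAt u (hx u hu huT)
    have h2 : (stoich R).mkQL (massAction R (κ u) (z u)) = 0 := by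
      rw [Submodule.mkQL_apply, Submodule.mkQ_apply, Submodule.Quotient.mk_eq_zero]
      exact massAction_mem R _ _
    rw [h2] at h1
    exact h1
  have hconst : (stoich R).mkQL (x t) = (stoich R).mkQL (x 0) :=
    constant_of_has_deriv_right_zero (f := fun u => (stoich R).mkQL (x u))
      (a := 0) (b := t)
      (fun u hu => (hd u hu.1 (lt_of_le_of_lt hu.2 htT)).continuousWithinAt.mono
        (fun y hy => hy.1))
      (fun u hu => (hd u hu.1 (lt_trans hu.2 htT)).mono (Set.Ici_subset_Ici.2 hu.1)) t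
      (Set.right_mem_Icc.2 ht)
  have h3 : x t - x 0 ∈ stoich R := by
    simp only [Submodule.mkQL_apply, Submodule.mkQ_apply] at hconst
    exact (Submodule.Quotient.eq _).1 hconst
  have h4 : x t - c = (x t - x 0) + (x 0 - c) := by abel
  rw [h4]
  exact Submodule.add_mem _ h3 h0

/-- A global solution of the field clamped to a box. -/
theorem global_vec {d : ℕ} (F : (Fin d → ℝ) → (Fin d → ℝ)) (lo hi : Fin d → ℝ)
    (hlh : ∀ j, lo j ≤ hi j) (K : ℝ≥0) (hLip : LipschitzOnWith K F (Set.Icc lo hi))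
    (x₀ : Fin d → ℝ) :
    ∃ x : ℝ → Fin d → ℝ, x 0 = x₀ ∧ ∀ t, 0 ≤ t →
      HasDerivWithinAt x (F (fun j => max (lo j) (min (hi j) (x t j)))) (Set.Ici 0) t := by
  set cl : (Fin d → ℝ) → (Fin d → ℝ) := fun p j => max (lo j) (min (hi j) (p j)) with hcl
  have hclmem : ∀ p, cl p ∈ Set.Icc lo hi := fun p =>
    ⟨fun j => le_max_left _ _, fun j => max_le (hlh j) (min_le_left _ _)⟩
  have hclLip : LipschitzWith 1 cl := by
    apply LipschitzWith.of_dist_le_mul
    intro p q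
    rw [NNReal.coe_one, one_mul]
    apply (dist_pi_le_iff dist_nonneg).2
    intro j
    have h1 := ((LipschitzWith.id.const_min (hi j)).const_max (lo j)).dist_le_mul (p j) (q j)
    rw [NNReal.coe_one, one_mul] at h1
    exact le_trans h1 (dist_le_pi_dist p q j)
  set gt : (Fin d → ℝ) → (Fin d → ℝ) := fun p => F (cl p) with hgt
  have hgtLip : LipschitzWith K gt := by
    have h1 : LipschitzOnWith (K * 1) (F ∘ cl) Set.univ :=
      hLip.comp hclLip.lipschitzOnWith (fun p _ => hclmem p)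
    rw [mul_one, lipschitzOnWith_univ] at h1
    exact h1
  obtain ⟨C, hC⟩ := isCompact_Icc.exists_bound_of_continuousOn hLip.continuousOn
  set L : ℝ≥0 := Real.toNNReal C with hL
  have hgtL : ∀ p, ‖gt p‖ ≤ L := by
    intro p
    have h1 := hC (cl p) (hclmem p)
    have h2 : C ≤ (L : ℝ) := Real.le_coe_toNNReal C
    exact le_trans h1 h2
  -- local solutions on every interval
  have hloc : ∀ T : ℝ, ∃ α : ℝ → Fin d → ℝ, α 0 = x₀ ∧ ∀ t ∈ Set.Icc (0 : ℝ) (|T| + 1),
      HasDerivWithinAt α (gt (α t)) (Set.Icc 0 (|T| + 1)) t := by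
    intro T
    have hT : (0 : ℝ) ≤ |T| + 1 := by positivity
    have hpl : IsPicardLindelof (fun _ : ℝ => gt) (tmin := 0) (tmax := |T| + 1)
        ⟨0, Set.left_mem_Icc.2 hT⟩ x₀ (L * Real.toNNReal (|T| + 1)) 0 L K := by
      apply IsPicardLindelof.of_time_independent
      · intro p _
        exact hgtL p
      · exact hgtLip.lipschitzOnWith
      · simp only [sub_zero, sub_self]
        rw [max_eq_left hT]
        push_cast
        rw [Real.coe_toNNReal _ hT]
        simp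
    exact hpl.exists_eq_forall_mem_Icc_hasDerivWithinAt₀
  choose α hα0 hα using hloc
  -- uniqueness on overlaps
  have huniq : ∀ T₁ T₂ : ℝ, |T₁| ≤ |T₂| → Set.EqOn (α T₁) (α T₂) (Set.Icc 0 (|T₁| + 1)) := by
    intro T₁ T₂ hle
    have hsubI : Set.Icc (0 : ℝ) (|T₁| + 1) ⊆ Set.Icc 0 (|T₂| + 1) :=
      Set.Icc_subset_Icc le_rfl (by linarith)
    apply ODE_solution_unique_of_mem_Icc_right (v := fun _ => gt) (s := fun _ => Set.univ)
      (K := K)
    · intro t _
      exact hgtLip.lipschitzOnWith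
    · intro t ht
      exact (hα T₁ t ht).continuousWithinAt
    · intro t ht
      exact (hα T₁ t (Set.Ico_subset_Icc_self ht)).mono_of_mem_nhdsWithin
        (Icc_mem_nhdsGE_of_mem ht)
    · intro t _
      exact Set.mem_univ _
    · intro t ht
      exact ((hα T₂ t (hsubI ht)).continuousWithinAt).mono hsubI
    · intro t ht
      have ht2 : t ∈ Set.Ico (0 : ℝ) (|T₂| + 1) := ⟨ht.1, lt_of_lt_of_le ht.2 (by linarith)⟩
      exact (hα T₂ t (Set.Ico_subset_Icc_self ht2)).mono_of_mem_nhdsWithin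
        (Icc_mem_nhdsGE_of_mem ht2)
    · intro t _
      exact Set.mem_univ _
    · rw [hα0, hα0]
  set s : ℝ → Fin d → ℝ := fun t => α t t with hs
  have hsderiv : ∀ t, 0 ≤ t → HasDerivWithinAt s (gt (s t)) (Set.Ici 0) t := by
    intro t ht
    have habs : |t + 1| = t + 1 := abs_of_nonneg (by linarith)
    have hmem : t ∈ Set.Icc (0 : ℝ) (|t + 1| + 1) := ⟨ht, by rw [habs]; linarith⟩
    have h1 := hα (t + 1) t hmem
    have hnhds : Set.Icc (0 : ℝ) (|t + 1| + 1) ∈ 𝓝[Set.Ici 0] t := by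
      have h2 : Set.Icc (0 : ℝ) (|t + 1| + 1) = Set.Ici 0 ∩ Set.Iic (|t + 1| + 1) := rfl
      rw [h2]
      exact Filter.inter_mem self_mem_nhdsWithin
        (mem_nhdsWithin_of_mem_nhds (Iic_mem_nhds (by rw [habs]; linarith)))
    have h3 := h1.mono_of_mem_nhdsWithin hnhds
    have hst : s t = α (t + 1) t := by
      show α t t = α (t + 1) t
      exact huniq t (t + 1) (by rw [habs, abs_of_nonneg ht]; linarith) ⟨ht, by
        rw [abs_of_nonneg ht]; linarith⟩
    have hev : s =ᶠ[𝓝[Set.Ici 0] t] α (t + 1) := by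
      have hnhds2 : Set.Icc (0 : ℝ) (t + 1) ∈ 𝓝[Set.Ici 0] t := by
        have h2 : Set.Icc (0 : ℝ) (t + 1) = Set.Ici 0 ∩ Set.Iic (t + 1) := rfl
        rw [h2]
        exact Filter.inter_mem self_mem_nhdsWithin
          (mem_nhdsWithin_of_mem_nhds (Iic_mem_nhds (by linarith)))
      filter_upwards [hnhds2] with u hu
      show α u u = α (t + 1) u
      exact huniq u (t + 1) (by rw [habs, abs_of_nonneg hu.1]; exact hu.2) ⟨hu.1, by
        rw [abs_of_nonneg hu.1]; linarith⟩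
    rw [hst]
    exact h3.congr_of_eventuallyEq hev hst
  exact ⟨s, hα0 0, hsderiv⟩

theorem core (d m : ℕ) (blk : Fin d → Fin m) (R : Finset (Cx d × Cx d))
    (lvl : Cx d × Cx d → Fin m)
    (hne : ∀ r ∈ R, r.1 ≠ r.2)
    (hown : ∀ r ∈ R, ∀ i, blk i ≠ lvl r → r.2 i = r.1 i)
    (hlev : ∀ k, (R.filter (fun r => lvl r = k)).Nonempty)
    (hwr : ∀ k, WeaklyReversible (R.filter (fun r => lvl r = k)))
    (hdim : ∀ k, Module.finrank ℝ (stoich (R.filter (fun r => lvl r = k))) ≤ 1)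
    (c : Fin d → ℝ) (hc : ∀ i, 0 < c i) (ε : ℝ) (hε : 0 < ε) :
    (∀ x₀ ∈ posClass R c, ∃ lo hi : Fin d → ℝ, (∀ j, 0 < lo j) ∧
      (∀ j, lo j ≤ x₀ j ∧ x₀ j ≤ hi j) ∧
      ∀ κ : ℝ → Cx d × Cx d → ℝ, (∀ t, ∀ r ∈ R, ε ≤ κ t r ∧ κ t r ≤ ε⁻¹) →
      ∀ (Tmax : ℝ) (x z : ℝ → Fin d → ℝ),
        (∀ t, 0 ≤ t → t < Tmax →
          HasDerivWithinAt x (massAction R (κ t) (z t)) (Set.Ici 0) t) →
        (∀ t, 0 ≤ t → t < Tmax → (∀ j, lo j ≤ x t j ∧ x t j ≤ hi j) → z t = x t) →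
        x 0 = x₀ → ∀ t, 0 ≤ t → t < Tmax →
          (∀ j, lo j ≤ x t j ∧ x t j ≤ hi j) ∧ x t - c ∈ stoich R) ∧
    (∃ K : Set (Fin d → ℝ), IsCompact K ∧ K ⊆ posClass R c ∧
      ∀ κ : ℝ → Cx d × Cx d → ℝ, (∀ t, ∀ r ∈ R, ε ≤ κ t r ∧ κ t r ≤ ε⁻¹) →
      ∀ x : ℝ → Fin d → ℝ,
        (∀ t, 0 ≤ t → HasDerivWithinAt x (massAction R (κ t) (x t)) (Set.Ici 0) t) →
        x 0 ∈ posClass R c → ∃ T, ∀ t, T ≤ t → x t ∈ K) := by
  classical
  choose v i₀ φ a₀ b₀ γ₁ γ₂ y₁ y₂ hvi hblk hvz hcf hab hapos hbpos hγ₁ hγ₂ hsign using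
    fun k => level_data d m blk R lvl hne hown c hc ε hε k (hlev k) (hwr k) (hdim k)
  -- the scalar coordinate of a state on each level
  set σ : (Fin d → ℝ) → Fin m → ℝ := fun y k => (y (i₀ k) - c (i₀ k)) / v k (i₀ k) with hσ
  set Gx : (Cx d × Cx d → ℝ) → (Fin d → ℝ) → Fin m → ℝ := fun κ y k =>
    ∑ r ∈ R.filter (fun r => lvl r = k), κ r * mono y r.1 * (φ k r.2 - φ k r.1) with hGx
  have hinit : ∀ w ∈ stoich R, ∀ k, ∃ a : ℝ, ∀ j, blk j = k → w j = a * v k j := by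
    intro w hw k
    refine Submodule.span_induction
      (p := fun w _ => ∃ a : ℝ, ∀ j, blk j = k → w j = a * v k j) ?_ ?_ ?_ ?_ hw
    · rintro _ ⟨r, hr, rfl⟩
      by_cases hl : lvl r = k
      · refine ⟨φ k r.2 - φ k r.1, fun j _ => ?_⟩
        have := hcf k r hr hl j
        simpa [rvec] using this
      · refine ⟨0, fun j hj => ?_⟩
        have := hown r hr j (by rw [hj]; exact fun h => hl h.symm)
        simp [rvec, this]
    · exact ⟨0, fun j _ => by simp⟩
    · rintro p q _ _ ⟨a, ha⟩ ⟨b, hb⟩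
      exact ⟨a + b, fun j hj => by simp [ha j hj, hb j hj, add_mul]⟩
    · rintro t p _ ⟨a, ha⟩
      exact ⟨t * a, fun j hj => by simp [ha j hj, mul_assoc]⟩
  have hline0 : ∀ y ∈ posClass R c, ∀ k j, blk j = k → y j = c j + σ y k * v k j := by
    intro y hy k j hj
    obtain ⟨a, ha⟩ := hinit _ hy.2 k
    have h1 := ha j hj
    have h2 := ha (i₀ k) (hblk k)
    simp only [Pi.sub_apply] at h1 h2
    have h3 : σ y k = a := by
      show (y (i₀ k) - c (i₀ k)) / v k (i₀ k) = a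
      rw [h2]
      have := hvi k
      field_simp
    rw [h3]
    linarith
  have hσpos : ∀ y ∈ posClass R c, ∀ k j, 0 < c j + σ y k * v k j := by
    intro y hy k j
    by_cases hj : blk j = k
    · rw [← hline0 y hy k j hj]
      exact hy.1 j
    · rw [hvz k j hj, mul_zero, add_zero]
      exact hc j
  have hApos : ∀ y ∈ posClass R c, ∀ k j, 0 < c j + min (σ y k) (a₀ k) * v k j := by
    intro y hy k
    rcases min_choice (σ y k) (a₀ k) with h | h
    · intro j; rw [h]; exact hσpos y hy k j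
    · intro j; rw [h]; exact hapos k j
  have hBpos : ∀ y ∈ posClass R c, ∀ k j, 0 < c j + max (σ y k) (b₀ k) * v k j := by
    intro y hy k
    rcases max_choice (σ y k) (b₀ k) with h | h
    · intro j; rw [h]; exact hσpos y hy k j
    · intro j; rw [h]; exact hbpos k j
  -- facts about a solution on a time interval
  have hcommon : ∀ κ : ℝ → Cx d × Cx d → ℝ, (∀ t, ∀ r ∈ R, ε ≤ κ t r ∧ κ t r ≤ ε⁻¹) →
      ∀ (Tmax : ℝ) (x z : ℝ → Fin d → ℝ),
        (∀ t, 0 ≤ t → t < Tmax →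
          HasDerivWithinAt x (massAction R (κ t) (z t)) (Set.Ici 0) t) →
        (∀ t, 0 ≤ t → t < Tmax →
          (∀ k, min (σ (x 0) k) (a₀ k) ≤ σ (x t) k ∧ σ (x t) k ≤ max (σ (x 0) k) (b₀ k)) →
          (∀ j, x t j = c j + σ (x t) (blk j) * v (blk j) j) → z t = x t) →
        x 0 ∈ posClass R c →
        ∀ t, 0 ≤ t → t < Tmax →
          (∀ k, HasDerivWithinAt (fun t => σ (x t) k) (Gx (κ t) (z t) k) (Set.Ici 0) t) ∧
          (∀ j, x t j = c j + σ (x t) (blk j) * v (blk j) j) ∧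
          (∀ k, min (σ (x 0) k) (a₀ k) ≤ σ (x t) k ∧ σ (x t) k ≤ max (σ (x 0) k) (b₀ k)) ∧
          (∀ j, 0 < x t j) := by
    intro κ hκ Tmax x z hx hz hx0 t ht htT
    have hcoord : ∀ u, 0 ≤ u → u < Tmax → ∀ j,
        HasDerivWithinAt (fun t => x t j) (Gx (κ u) (z u) (blk j) * v (blk j) j)
          (Set.Ici 0) u := by
      intro u hu huT j
      have h1 := hasDerivWithinAt_pi.1 (hx u hu huT) j
      have h2 : massAction R (κ u) (z u) j = Gx (κ u) (z u) (blk j) * v (blk j) j := by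
        unfold massAction
        rw [Finset.sum_apply, hGx]
        simp only
        rw [Finset.sum_mul, Finset.sum_filter]
        apply Finset.sum_congr rfl
        intro r hr
        by_cases hl : lvl r = blk j
        · rw [if_pos hl]
          have h3 := hcf (blk j) r hr hl j
          simp only [Pi.smul_apply, smul_eq_mul, rvec]
          rw [h3]
          unfold mono
          ring
        · rw [if_neg hl]
          have := hown r hr j (fun h => hl h.symm)
          simp [rvec, this]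
      rw [h2] at h1
      exact h1
    have hsderiv : ∀ k u, 0 ≤ u → u < Tmax →
        HasDerivWithinAt (fun t => σ (x t) k) (Gx (κ u) (z u) k) (Set.Ici 0) u := by
      intro k u hu huT
      have h0 := hcoord u hu huT (i₀ k)
      rw [hblk k] at h0
      have h1 := (h0.sub_const (c (i₀ k))).div_const (v k (i₀ k))
      have h2 : Gx (κ u) (z u) k * v k (i₀ k) / v k (i₀ k) = Gx (κ u) (z u) k := by
        have := hvi k
        field_simp
      rw [h2] at h1
      exact h1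
    have hline : ∀ u, 0 ≤ u → u < Tmax → ∀ j,
        x u j = c j + σ (x u) (blk j) * v (blk j) j := by
      intro u hu huT j
      have hzero : ∀ w, 0 ≤ w → w < Tmax → HasDerivWithinAt
          (fun w => x w j - (c j + σ (x w) (blk j) * v (blk j) j)) 0 (Set.Ici 0) w := by
        intro w hw hwT
        have h1 := (hcoord w hw hwT j).sub
          (((hsderiv (blk j) w hw hwT).mul_const (v (blk j) j)).const_add (c j))
        have h2 : Gx (κ w) (z w) (blk j) * v (blk j) j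
            - Gx (κ w) (z w) (blk j) * v (blk j) j = 0 := sub_self _
        rw [h2] at h1
        exact h1
      have hconst : x u j - (c j + σ (x u) (blk j) * v (blk j) j)
          = x 0 j - (c j + σ (x 0) (blk j) * v (blk j) j) :=
        constant_of_has_deriv_right_zero
          (f := fun w => x w j - (c j + σ (x w) (blk j) * v (blk j) j)) (a := 0) (b := u)
          (fun w hw => (hzero w hw.1 (lt_of_le_of_lt hw.2 huT)).continuousWithinAt.mono
            (fun y hy => hy.1))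
          (fun w hw => (hzero w hw.1 (lt_trans hw.2 huT)).mono (Set.Ici_subset_Ici.2 hw.1)) u
          (Set.right_mem_Icc.2 hu)
      have := hline0 (x 0) hx0 (blk j) j rfl
      linarith
    have hbox := joint_inv (fun k t => σ (x t) k) (fun k t => Gx (κ t) (z t) k) Tmax
      (fun k u hu huT => hsderiv k u hu huT)
      (fun k => min (σ (x 0) k) (a₀ k)) (fun k => max (σ (x 0) k) (b₀ k))
      (fun k => ⟨min_le_left _ _, le_max_left _ _⟩) (by
        intro u hu huT hbx k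
        have hxpos : ∀ j, 0 < x u j := by
          intro j
          rw [hline u hu huT j]
          exact pos_between c (v (blk j)) _ _ (σ (x u) (blk j)) (hApos (x 0) hx0 (blk j))
            (hBpos (x 0) hx0 (blk j)) (hbx (blk j)).1 (hbx (blk j)).2 j
        have hzu : z u = x u := hz u hu huT hbx (hline u hu huT)
        obtain ⟨hlo, hhi⟩ := hsign k (κ u) (hκ u) (x u) hxpos (σ (x u) k) (by
          intro j hj
          have := hline u hu huT j
          rw [hj] at this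
          exact this)
        show (σ (x u) k = min (σ (x 0) k) (a₀ k) → 0 < Gx (κ u) (z u) k) ∧
          (σ (x u) k = max (σ (x 0) k) (b₀ k) → Gx (κ u) (z u) k < 0)
        rw [hzu]
        constructor
        · intro h
          have h1 := hlo (by rw [h]; exact min_le_right _ _)
          exact lt_of_lt_of_le (mul_pos (hγ₁ k) (mono_pos _ hxpos _)) h1
        · intro h
          have h1 := hhi (by rw [h]; exact le_max_right _ _)
          have := mul_pos (hγ₂ k) (mono_pos (x u) hxpos (y₂ k))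
          linarith)
    refine ⟨fun k => hsderiv k t ht htT, fun j => hline t ht htT j,
      fun k => hbox t ht htT k, ?_⟩
    intro j
    rw [hline t ht htT j]
    exact pos_between c (v (blk j)) _ _ (σ (x t) (blk j)) (hApos (x 0) hx0 (blk j))
      (hBpos (x 0) hx0 (blk j)) (hbox t ht htT (blk j)).1 (hbox t ht htT (blk j)).2 j
  constructor
  · -- bounds on every interval of existence
    intro x₀ hx₀
    set lo : Fin d → ℝ := fun j => min (c j + min (σ x₀ (blk j)) (a₀ (blk j)) * v (blk j) j)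
      (c j + max (σ x₀ (blk j)) (b₀ (blk j)) * v (blk j) j) with hlo
    set hi : Fin d → ℝ := fun j => max (c j + min (σ x₀ (blk j)) (a₀ (blk j)) * v (blk j) j)
      (c j + max (σ x₀ (blk j)) (b₀ (blk j)) * v (blk j) j) with hhi
    have hlopos : ∀ j, 0 < lo j := fun j =>
      lt_min (hApos x₀ hx₀ (blk j) j) (hBpos x₀ hx₀ (blk j) j)
    refine ⟨lo, hi, hlopos, ?_, ?_⟩
    · intro j
      rw [hline0 x₀ hx₀ (blk j) j rfl]
      exact seg_bounds (c j) (v (blk j) j) _ _ _ (min_le_left _ _) (le_max_left _ _)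
    intro κ hκ Tmax x z hx hz hx0 t ht htT
    subst hx0
    obtain ⟨-, hline, hbox, -⟩ := hcommon κ hκ Tmax x z hx (by
      intro u hu huT hbx hl
      apply hz u hu huT
      intro j
      rw [hl j]
      exact seg_bounds (c j) (v (blk j) j) _ _ _ (hbx (blk j)).1 (hbx (blk j)).2) hx₀ t ht htT
    refine ⟨fun j => ?_, class_invariant_gen R κ x z Tmax hx c hx₀.2 t ht htT⟩
    rw [hline j]
    exact seg_bounds (c j) (v (blk j) j) _ _ _ (hbox (blk j)).1 (hbox (blk j)).2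
  · -- the attracting compact set
    set lo : Fin d → ℝ := fun j => min (c j + a₀ (blk j) * v (blk j) j)
      (c j + b₀ (blk j) * v (blk j) j) with hlo
    set hi : Fin d → ℝ := fun j => max (c j + a₀ (blk j) * v (blk j) j)
      (c j + b₀ (blk j) * v (blk j) j) with hhi
    have hlopos : ∀ j, 0 < lo j := fun j => lt_min (hapos (blk j) j) (hbpos (blk j) j)
    obtain ⟨hKc, hKs⟩ := compact_box R c lo hi hlopos
    refine ⟨_, hKc, hKs, ?_⟩
    intro κ hκ x hx hx0
    have hglob : ∀ t, 0 ≤ t →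
        (∀ k, HasDerivWithinAt (fun t => σ (x t) k) (Gx (κ t) (x t) k) (Set.Ici 0) t) ∧
        (∀ j, x t j = c j + σ (x t) (blk j) * v (blk j) j) ∧
        (∀ k, min (σ (x 0) k) (a₀ k) ≤ σ (x t) k ∧ σ (x t) k ≤ max (σ (x 0) k) (b₀ k)) ∧
        (∀ j, 0 < x t j) := fun t ht =>
      hcommon κ hκ (t + 1) x x (fun u hu _ => hx u hu) (fun _ _ _ _ _ => rfl) hx0 t ht
        (lt_add_one t)
    -- lower bounds for the coordinates along this solution
    set lo' : Fin d → ℝ := fun j => min (c j + min (σ (x 0) (blk j)) (a₀ (blk j)) * v (blk j) j)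
      (c j + max (σ (x 0) (blk j)) (b₀ (blk j)) * v (blk j) j) with hlo'
    have hlo'pos : ∀ j, 0 < lo' j := fun j =>
      lt_min (hApos (x 0) hx0 (blk j) j) (hBpos (x 0) hx0 (blk j) j)
    have hxlo : ∀ t, 0 ≤ t → ∀ j, lo' j ≤ x t j := by
      intro t ht j
      obtain ⟨-, hline, hbox, -⟩ := hglob t ht
      rw [hline j]
      exact (seg_bounds (c j) (v (blk j) j) _ _ _ (hbox (blk j)).1 (hbox (blk j)).2).1
    have hmonolo : ∀ t, 0 ≤ t → ∀ y : Cx d, ∏ j, lo' j ^ y j ≤ mono (x t) y := by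
      intro t ht y
      exact Finset.prod_le_prod (fun j _ => pow_nonneg (hlo'pos j).le _)
        (fun j _ => pow_le_pow_left₀ (hlo'pos j).le (hxlo t ht j) _)
    have hμpos : ∀ y : Cx d, 0 < ∏ j, lo' j ^ y j := fun y =>
      Finset.prod_pos (fun j _ => pow_pos (hlo'pos j) _)
    have hentry : ∀ k, ∃ T, 0 ≤ T ∧ ∀ t, T ≤ t → a₀ k ≤ σ (x t) k ∧ σ (x t) k ≤ b₀ k := by
      intro k
      obtain ⟨-, T₁, hT₁, hT₁s⟩ := scalar_dyn (fun t => σ (x t) k) (fun t => Gx (κ t) (x t) k)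
        (fun t ht => (hglob t ht).1 k) 0 le_rfl (min (σ (x 0) k) (a₀ k)) (a₀ k)
        (γ₁ k * ∏ j, lo' j ^ y₁ k j) (mul_pos (hγ₁ k) (hμpos _)) (min_le_right _ _) (by
          intro t ht _ h2
          obtain ⟨-, hline, -, hxpos⟩ := hglob t ht
          have h3 := (hsign k (κ t) (hκ t) (x t) hxpos (σ (x t) k) (by
            intro j hj
            have := hline j
            rw [hj] at this
            exact this)).1 h2
          exact le_trans (mul_le_mul_of_nonneg_left (hmonolo t ht _) (hγ₁ k).le) h3)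
        (min_le_left _ _)
      obtain ⟨-, T₂, hT₂, hT₂s⟩ := scalar_dyn (fun t => - σ (x t) k)
        (fun t => - Gx (κ t) (x t) k) (fun t ht => ((hglob t ht).1 k).neg) 0 le_rfl
        (- max (σ (x 0) k) (b₀ k)) (- b₀ k)
        (γ₂ k * ∏ j, lo' j ^ y₂ k j) (mul_pos (hγ₂ k) (hμpos _))
        (by have := le_max_right (σ (x 0) k) (b₀ k); linarith) (by
          intro t ht _ h2
          obtain ⟨-, hline, -, hxpos⟩ := hglob t ht
          have h3 := (hsign k (κ t) (hκ t) (x t) hxpos (σ (x t) k) (by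
            intro j hj
            have := hline j
            rw [hj] at this
            exact this)).2 (by linarith)
          have h4 := mul_le_mul_of_nonneg_left (hmonolo t ht (y₂ k)) (hγ₂ k).le
          show γ₂ k * ∏ j, lo' j ^ y₂ k j ≤ - Gx (κ t) (x t) k
          linarith)
        (by have := le_max_left (σ (x 0) k) (b₀ k); linarith)
      refine ⟨max T₁ T₂, le_trans hT₁ (le_max_left _ _), fun t ht => ⟨?_, ?_⟩⟩
      · exact hT₁s t (le_trans (le_max_left _ _) ht)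
      · have := hT₂s t (le_trans (le_max_right _ _) ht)
        linarith
    choose Tk hTk0 hTk using hentry
    refine ⟨∑ k, Tk k, fun t ht => ?_⟩
    have ht0 : 0 ≤ t := le_trans (Finset.sum_nonneg (fun k _ => hTk0 k)) ht
    have hk : ∀ k, Tk k ≤ t := fun k =>
      le_trans (Finset.single_le_sum (fun i _ => hTk0 i) (Finset.mem_univ k)) ht
    obtain ⟨-, hline, -, -⟩ := hglob t ht0
    refine ⟨fun j => ?_, class_invariant_gen R κ x x (t + 1) (fun u hu _ => hx u hu) c hx0.2 t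
      ht0 (lt_add_one t)⟩
    rw [hline j]
    exact seg_bounds (c j) (v (blk j) j) _ _ _ (hTk (blk j) t (hk (blk j))).1
      (hTk (blk j) t (hk (blk j))).2

/-- Permanence for catalytically coupled one-dimensional weakly reversible blocks.
The d species are split into m blocks (blk) and the reactions into m levels (lvl). A reaction
of level k changes only species of block k; species of other blocks may occur in it as
catalysts, with the same multiplicity on both sides. Each level contains a reaction, is weakly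
reversible by itself and has a stoichiometric subspace of dimension at most one.
Then on every positive stoichiometric class: for constant positive rates there is a solution
on the whole half line from every point of the class, and every solution on an interval
[0, Tmax) from that point agrees with it; for rates varying in time within [ε, 1/ε] every
solution on an interval [0, Tmax) stays in a compact subset of the class that depends only on
its starting point, and there is one compact subset of the class which every solution on the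
half line enters and never leaves after some time. -/
theorem result (d m : ℕ) (blk : Fin d → Fin m) (R : Finset (Cx d × Cx d))
    (lvl : Cx d × Cx d → Fin m)
    (hne : ∀ r ∈ R, r.1 ≠ r.2)
    (hown : ∀ r ∈ R, ∀ i, blk i ≠ lvl r → r.2 i = r.1 i)
    (hlev : ∀ k, (R.filter (fun r => lvl r = k)).Nonempty)
    (hwr : ∀ k, WeaklyReversible (R.filter (fun r => lvl r = k)))
    (hdim : ∀ k, Module.finrank ℝ (stoich (R.filter (fun r => lvl r = k))) ≤ 1)
    (c : Fin d → ℝ) (hc : ∀ i, 0 < c i) :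
    (∀ κ : Cx d × Cx d → ℝ, (∀ r ∈ R, 0 < κ r) → ∀ x₀ ∈ posClass R c,
      ∃ x : ℝ → Fin d → ℝ, x 0 = x₀ ∧
        (∀ t, 0 ≤ t → HasDerivWithinAt x (massAction R κ (x t)) (Set.Ici 0) t) ∧
        ∀ (Tmax : ℝ) (y : ℝ → Fin d → ℝ),
          (∀ t, 0 ≤ t → t < Tmax →
            HasDerivWithinAt y (massAction R κ (y t)) (Set.Ici 0) t) →
          y 0 = x₀ → ∀ t, 0 ≤ t → t < Tmax → y t = x t) ∧
    (∀ ε : ℝ, 0 < ε →
      (∀ x₀ ∈ posClass R c, ∃ Q : Set (Fin d → ℝ), IsCompact Q ∧ Q ⊆ posClass R c ∧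
        ∀ κ : ℝ → Cx d × Cx d → ℝ, (∀ t, ∀ r ∈ R, ε ≤ κ t r ∧ κ t r ≤ ε⁻¹) →
        ∀ (Tmax : ℝ) (x : ℝ → Fin d → ℝ),
          (∀ t, 0 ≤ t → t < Tmax →
            HasDerivWithinAt x (massAction R (κ t) (x t)) (Set.Ici 0) t) →
          x 0 = x₀ → ∀ t, 0 ≤ t → t < Tmax → x t ∈ Q) ∧
      (∃ K : Set (Fin d → ℝ), IsCompact K ∧ K ⊆ posClass R c ∧
        ∀ κ : ℝ → Cx d × Cx d → ℝ, (∀ t, ∀ r ∈ R, ε ≤ κ t r ∧ κ t r ≤ ε⁻¹) →
        ∀ x : ℝ → Fin d → ℝ,
          (∀ t, 0 ≤ t → HasDerivWithinAt x (massAction R (κ t) (x t)) (Set.Ici 0) t) →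
          x 0 ∈ posClass R c → ∃ T, ∀ t, T ≤ t → x t ∈ K)) := by
  constructor
  · intro κ hκ x₀ hx₀
    obtain ⟨ε, hε, hb⟩ := exists_rate_bound R κ hκ
    obtain ⟨hA, -⟩ := core d m blk R lvl hne hown hlev hwr hdim c hc ε hε
    obtain ⟨lo, hi, hlopos, hx₀box, hprop⟩ := hA x₀ hx₀
    have hlh : ∀ j, lo j ≤ hi j := fun j => le_trans (hx₀box j).1 (hx₀box j).2
    obtain ⟨K, hK⟩ := massAction_lip R κ lo hi
    obtain ⟨x, hx0, hxd⟩ := global_vec (massAction R κ) lo hi hlh K hK x₀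
    have hclid : ∀ p : Fin d → ℝ, (∀ j, lo j ≤ p j ∧ p j ≤ hi j) →
        (fun j => max (lo j) (min (hi j) (p j))) = p := by
      intro p hp
      funext j
      rw [min_eq_right (hp j).2, max_eq_right (hp j).1]
    have hxbox : ∀ t, 0 ≤ t → (∀ j, lo j ≤ x t j ∧ x t j ≤ hi j) := by
      intro t ht
      exact (hprop (fun _ => κ) (fun _ => hb) (t + 1) x
        (fun t j => max (lo j) (min (hi j) (x t j)))
        (fun u hu _ => hxd u hu) (fun u _ _ hbx => hclid (x u) hbx) hx0 t ht (lt_add_one t)).1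
    have hxsol : ∀ t, 0 ≤ t → HasDerivWithinAt x (massAction R κ (x t)) (Set.Ici 0) t := by
      intro t ht
      have := hxd t ht
      rwa [hclid (x t) (hxbox t ht)] at this
    refine ⟨x, hx0, hxsol, ?_⟩
    intro Tmax y hy hy0 t ht htT
    have hybox : ∀ u, 0 ≤ u → u < Tmax → (∀ j, lo j ≤ y u j ∧ y u j ≤ hi j) :=
      fun u hu huT =>
        (hprop (fun _ => κ) (fun _ => hb) Tmax y y hy (fun _ _ _ _ => rfl) hy0 u hu huT).1
    have heq : Set.EqOn y x (Set.Icc 0 t) := by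
      apply ODE_solution_unique_of_mem_Icc_right (v := fun _ => massAction R κ)
        (s := fun _ => Set.Icc lo hi) (K := K)
      · intro u _
        exact hK
      · intro u hu
        exact ((hy u hu.1 (lt_of_le_of_lt hu.2 htT)).continuousWithinAt).mono
          (fun w hw => hw.1)
      · intro u hu
        exact (hy u hu.1 (lt_trans hu.2 htT)).mono (Set.Ici_subset_Ici.2 hu.1)
      · intro u hu
        exact ⟨fun j => (hybox u hu.1 (lt_trans hu.2 htT) j).1,
          fun j => (hybox u hu.1 (lt_trans hu.2 htT) j).2⟩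
      · intro u hu
        exact ((hxsol u hu.1).continuousWithinAt).mono (fun w hw => hw.1)
      · intro u hu
        exact (hxsol u hu.1).mono (Set.Ici_subset_Ici.2 hu.1)
      · intro u hu
        exact ⟨fun j => (hxbox u hu.1 j).1, fun j => (hxbox u hu.1 j).2⟩
      · rw [hy0, hx0]
    exact heq (Set.right_mem_Icc.2 ht)
  · intro ε hε
    obtain ⟨hA, hB⟩ := core d m blk R lvl hne hown hlev hwr hdim c hc ε hε
    refine ⟨?_, hB⟩
    intro x₀ hx₀
    obtain ⟨lo, hi, hlopos, -, hprop⟩ := hA x₀ hx₀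
    obtain ⟨hQc, hQs⟩ := compact_box R c lo hi hlopos
    refine ⟨_, hQc, hQs, ?_⟩
    intro κ hκ Tmax x hx hx0 t ht htT
    exact hprop κ hκ Tmax x x hx (fun _ _ _ _ => rfl) hx0 t ht htT

end Vale.Agent.Results.P072.CatalyticBlocks
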